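import Crest.Statements.S0071
import Crest.Agent.S0071Aux.M0
import Crest.Agent.S0071Aux.M1
import Crest.Agent.S0071Aux.M2
import Crest.Agent.S0071Aux.MC
import Crest.Agent.S0071Aux.M8
import Crest.Agent.S0071Aux.M9

set_option autoImplicit false
open Crest Crest.CombinatoricsR

namespace Crest.Agent.S0071

open Crest.Agent.S0071Aux Finset

/-- Let F be a non-empty family of subsets of a finite non-empty type, closed upwards and not containing ∅, and let r ∈ [0, 1]. If F has a fractional cover of cost at most 1/2 at r (weights g(S) ∈ [0, 1] with Σ_{S ⊆ H} g(S) ≥ 1 for all H ∈ F and Σ_S g(S) · r^(card S) ≤ 1/2), then F has an integral cover of cost at most 1/2 at r / (25 · 512^4): a family G such that every member of F contains a member of G and Σ_{S ∈ G} (r / (25 · 512^4))^(card S) ≤ 1/2. -/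
theorem result (α : Type) [Fintype α]
    [DecidableEq α] [Nonempty α] (F : Finset (Finset α)) (hne : F.Nonempty) (hempty : ∅ ∉ F)
    (hup : ∀ A ∈ F, ∀ B : Finset α, A ⊆ B → B ∈ F) (r : ℝ) (hr0 : 0 ≤ r) (hr1 : r ≤ 1)
    (g : Finset α → ℝ) (hg : ∀ S : Finset α, 0 ≤ g S ∧ g S ≤ 1)
    (hcov : ∀ H ∈ F, 1 ≤ ∑ S ∈ H.powerset, g S)
    (hcost : ∑ S : Finset α, g S * r ^ S.card ≤ 1 / 2) :
    ∃ G : Finset (Finset α), (∀ H ∈ F, ∃ S ∈ G, S ⊆ H) ∧
      ∑ S ∈ G, (r / (25 * 512 ^ 4)) ^ S.card ≤ 1 / 2 := by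
  classical
  by_contra hno
  push Not at hno
  obtain ⟨q, hqdef⟩ : ∃ q : ℝ, q = r / (25 * 512 ^ 4) := ⟨_, rfl⟩
  rw [← hqdef] at hno
  have hg0 : ∀ S, 0 ≤ g S := fun S => (hg S).1
  have hq0 : 0 < q := by
    rcases hr0.lt_or_eq with h | h
    · rw [hqdef]; positivity
    · exfalso
      have hq : q = 0 := by rw [hqdef, ← h]; simp
      have h1 := hno F (fun H hH => ⟨H, hH, Subset.refl _⟩)
      have h2 : ∑ S ∈ F, q ^ S.card = 0 := by
        refine Finset.sum_eq_zero fun S hS => ?_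
        have : S.card ≠ 0 := by
          intro h0
          rw [Finset.card_eq_zero] at h0
          exact hempty (h0 ▸ hS)
        rw [hq, zero_pow this]
      rw [h2] at h1
      norm_num at h1
  obtain ⟨J, p, hp0, hp, hple, hsum⟩ := exists_params q hq0
  have hcostb := cost_bound F (wH g) J p q hq0.le hp0 hp hsum
  have hPw0 : ∀ ω : α → ℕ, 0 ≤ Pw p ω := fun ω => Finset.prod_nonneg (fun x _ => hp0 _)
  have htot : ∑ ω ∈ Om α J, Pw p ω = 1 := by
    simpa using sum_Pw_prod J p hsum (∅ : Finset α) (fun _ => 1)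
  have hbad : ∀ ω ∈ Om α J, (¬ ∃ H ∈ F, InQ (wH g) J ω 0 H) →
      1 / 2 ≤ ∑ ω' ∈ (Om α J).filter
        (fun ω' => (∀ x, ω' x ≤ ω x) ∧ Valid F (wH g) J ω' (Td ω ω')), q ^ (Td ω ω').card := by
    intro ω hω hb
    have hG : ∀ H ∈ F, ∃ S ∈ ((Om α J).filter
        (fun ω' => (∀ x, ω' x ≤ ω x) ∧ Valid F (wH g) J ω' (Td ω ω'))).image (fun ω' => Td ω ω'),
        S ⊆ H := by
      intro H hH
      obtain ⟨ω', h1, h2, h3, h4⟩ := cover F (wH g) J ω hω hb H hH
      exact ⟨Td ω ω', Finset.mem_image.2 ⟨ω', Finset.mem_filter.2 ⟨h1, h2, h4⟩, rfl⟩, h3⟩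
    refine (hno _ hG).le.trans ?_
    exact Finset.sum_image_le_of_nonneg (fun S _ => pow_nonneg hq0.le _)
  -- mass of the good labellings
  have hsplit : ∑ ω ∈ (Om α J).filter (fun ω => ∃ H ∈ F, InQ (wH g) J ω 0 H), Pw p ω
      + ∑ ω ∈ (Om α J).filter (fun ω => ¬ ∃ H ∈ F, InQ (wH g) J ω 0 H), Pw p ω = 1 := by
    rw [Finset.sum_filter_add_sum_filter_not, htot]
  have hbadmass : ∑ ω ∈ (Om α J).filter (fun ω => ¬ ∃ H ∈ F, InQ (wH g) J ω 0 H), Pw p ω * (1 / 2)
      ≤ 1 / 4 := by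
    refine le_trans ?_ hcostb
    refine le_trans ?_ (Finset.sum_le_sum_of_subset_of_nonneg
      (Finset.filter_subset (fun ω => ¬ ∃ H ∈ F, InQ (wH g) J ω 0 H) (Om α J)) ?_)
    · refine Finset.sum_le_sum fun ω hω => ?_
      rw [Finset.mem_filter] at hω
      exact mul_le_mul_of_nonneg_left (hbad ω hω.1 hω.2) (hPw0 ω)
    · intro ω _ _
      exact mul_nonneg (hPw0 ω) (Finset.sum_nonneg fun _ _ => pow_nonneg hq0.le _)
  rw [← Finset.sum_mul] at hbadmass
  have hgoodmass : 1 / 2 ≤ ∑ ω ∈ (Om α J).filter (fun ω => ∃ H ∈ F, InQ (wH g) J ω 0 H), Pw p ω := by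
    linarith
  have hgempty : g ∅ ≤ 1 / 2 := by
    have := Finset.single_le_sum (f := fun S : Finset α => g S * r ^ S.card)
      (fun S _ => mul_nonneg (hg0 S) (pow_nonneg hr0 _)) (Finset.mem_univ (∅ : Finset α))
    simp only [Finset.card_empty, pow_zero, mul_one] at this
    linarith
  have hPhi0 : ∀ ω : α → ℕ, 0 ≤ Phi g ω := fun ω => Finset.sum_nonneg fun I _ => hg0 I
  have hlow : 1 / 8 ≤ ∑ ω ∈ Om α J, Pw p ω * Phi g ω := by
    have h1 : ∑ ω ∈ (Om α J).filter (fun ω => ∃ H ∈ F, InQ (wH g) J ω 0 H), Pw p ω * (1 / 4)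
        ≤ ∑ ω ∈ Om α J, Pw p ω * Phi g ω := by
      refine le_trans ?_ (Finset.sum_le_sum_of_subset_of_nonneg
        (Finset.filter_subset (fun ω => ∃ H ∈ F, InQ (wH g) J ω 0 H) (Om α J)) ?_)
      · refine Finset.sum_le_sum fun ω hω => ?_
        rw [Finset.mem_filter] at hω
        have := Phi_ge F g hg0 hcov J ω hω.1 hω.2
        exact mul_le_mul_of_nonneg_left (by linarith) (hPw0 ω)
      · intro ω _ _
        exact mul_nonneg (hPw0 ω) (hPhi0 ω)
    rw [← Finset.sum_mul] at h1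
    linarith
  have hup' := EPhi_le J p q hq0.le hp0 hple hsum g hg0
  have hfin : ∑ I ∈ (univ : Finset (Finset α)).filter Finset.Nonempty, g I * (131072 * q) ^ I.card
      ≤ (1 / 16) * ∑ S : Finset α, g S * r ^ S.card := by
    rw [Finset.mul_sum]
    refine le_trans (Finset.sum_le_sum fun I hI => ?_)
      (Finset.sum_le_sum_of_subset_of_nonneg
        (Finset.filter_subset Finset.Nonempty (univ : Finset (Finset α))) ?_)
    · rw [Finset.mem_filter] at hI
      have hc : 1 ≤ I.card := Finset.card_pos.2 hI.2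
      have e : 131072 * q = (131072 / (25 * 512 ^ 4)) * r := by rw [hqdef]; ring
      rw [e, mul_pow]
      have hk : ((131072 : ℝ) / (25 * 512 ^ 4)) ^ I.card ≤ 1 / 16 := by
        calc ((131072 : ℝ) / (25 * 512 ^ 4)) ^ I.card ≤ ((131072 : ℝ) / (25 * 512 ^ 4)) ^ 1 :=
              pow_le_pow_of_le_one (by positivity) (by norm_num) hc
          _ ≤ 1 / 16 := by norm_num
      have hr : 0 ≤ r ^ I.card := pow_nonneg hr0 _
      have := mul_le_mul_of_nonneg_right hk hr
      have h2 := mul_le_mul_of_nonneg_left this (hg0 I)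
      calc g I * ((131072 / (25 * 512 ^ 4)) ^ I.card * r ^ I.card) ≤ g I * (1 / 16 * r ^ I.card) := h2
        _ = 1 / 16 * (g I * r ^ I.card) := by ring
    · intro I _ _
      exact mul_nonneg (by norm_num) (mul_nonneg (hg0 I) (pow_nonneg hr0 _))
  linarith

end Crest.Agent.S0071
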