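import Crest.Statements.S0110
import Crest.Agent.S0110Aux.Example2
import Crest.Agent.S0110Aux.Numeric

set_option autoImplicit false
open MeasureTheory
open scoped ENNReal NNReal
open Crest.AnalysisR.OT
open Crest Crest.AnalysisR Crest.AnalysisR.OT

namespace Crest.Agent.S0110

/-- The exponent one third is optimal, even on the cube with three-atom targets: for d ≥ 2, ρ the uniform probability measure on the cube of points of ℝᵈ with all coordinates in [-1, 1], every α > 1/3 and every C ≥ 0, there are three-atomic probability measures μ, ν on that cube, each admitting a quadratic optimal transport map from ρ, such that for all such optimal maps Tμ, Tν some coupling π of μ, ν has C · (∫ ‖y - z‖² dπ)^α < ∫ ‖Tμ - Tν‖² dρ. Hence ‖Tμ - Tν‖_{L²(ρ)} > √C · W₂(μ, ν)^α. -/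
theorem result
    (d : ℕ) (hd : 2 ≤ d) (α : ℝ) (hα : 1 / 3 < α) (C : ℝ≥0) :
    ∃ μ ν : Measure (EuclideanSpace ℝ (Fin d)),
      IsProbabilityOn {x : EuclideanSpace ℝ (Fin d) | ∀ i, |x i| ≤ 1} μ ∧
      IsProbabilityOn {x : EuclideanSpace ℝ (Fin d) | ∀ i, |x i| ≤ 1} ν ∧
      IsThreeAtomic μ ∧ IsThreeAtomic ν ∧
      (∃ T, IsOptimalMap (uniformProbOn {x : EuclideanSpace ℝ (Fin d) | ∀ i, |x i| ≤ 1}) μ T) ∧
      (∃ T, IsOptimalMap (uniformProbOn {x : EuclideanSpace ℝ (Fin d) | ∀ i, |x i| ≤ 1}) ν T) ∧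
      ∀ Tμ Tν : EuclideanSpace ℝ (Fin d) → EuclideanSpace ℝ (Fin d),
        IsOptimalMap (uniformProbOn {x : EuclideanSpace ℝ (Fin d) | ∀ i, |x i| ≤ 1}) μ Tμ →
        IsOptimalMap (uniformProbOn {x : EuclideanSpace ℝ (Fin d) | ∀ i, |x i| ≤ 1}) ν Tν →
        ∃ π : Measure (EuclideanSpace ℝ (Fin d) × EuclideanSpace ℝ (Fin d)), IsPairCoupling μ ν π ∧
          (C : ℝ≥0∞) * quadCost π ^ α < ∫⁻ x, ‖Tμ x - Tν x‖ₑ ^ 2 ∂(uniformProbOn {x : EuclideanSpace ℝ (Fin d) | ∀ i, |x i| ≤ 1}) := by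
  classical
  have hd0 : 0 < d := by omega
  have hd1 : 1 < d := by omega
  set i0 : Fin d := ⟨0, hd0⟩ with hi0
  set i1 : Fin d := ⟨1, hd1⟩ with hi1
  have hne : i0 ≠ i1 := by
    intro h
    have := congrArg Fin.val h
    simp [hi0, hi1] at this
  obtain ⟨h, hpos, hle, hnum⟩ := S0110Aux.exists_small α hα C
  have habs : |h| ≤ 1 / 4 := by rw [abs_of_pos hpos]; exact hle
  have habs' : |-h| ≤ 1 / 4 := by rw [abs_neg]; exact habs
  have h1 : |h| ≤ 1 := by linarith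
  have h1' : |-h| ≤ 1 := by linarith
  refine ⟨(uniformProbOn (S0110Aux.cube d)).map (S0110Aux.T0 i0 i1 h),
    (uniformProbOn (S0110Aux.cube d)).map (S0110Aux.T0 i0 i1 (-h)),
    S0110Aux.isProbabilityOn_map i0 i1 h h1, S0110Aux.isProbabilityOn_map i0 i1 (-h) h1',
    S0110Aux.isThreeAtomic_map i0 i1 hne h hpos.ne' habs,
    S0110Aux.isThreeAtomic_map i0 i1 hne (-h) (neg_ne_zero.2 hpos.ne') habs',
    ⟨_, (S0110Aux.T0_optimal i0 i1 h h1).1⟩, ⟨_, (S0110Aux.T0_optimal i0 i1 (-h) h1').1⟩, ?_⟩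
  intro Tμ Tν hTμ hTν
  refine ⟨S0110Aux.coup i0 i1 h, S0110Aux.isPairCoupling_coup i0 i1 hne h, ?_⟩
  have hlow := S0110Aux.dist_lower i0 i1 hne h hpos (by linarith) Tμ Tν
    ((S0110Aux.T0_optimal i0 i1 h h1).2 Tμ hTμ) ((S0110Aux.T0_optimal i0 i1 (-h) h1').2 Tν hTν)
  have hcost := S0110Aux.quadCost_coup_le i0 i1 hne h hpos (by linarith)
  have hα0 : 0 ≤ α := by linarith
  have hstep1 : (C : ℝ≥0∞) * quadCost (S0110Aux.coup i0 i1 h) ^ α
      ≤ (C : ℝ≥0∞) * ENNReal.ofReal (4 * h ^ 3) ^ α := by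
    gcongr
  have hstep2 : (C : ℝ≥0∞) * ENNReal.ofReal (4 * h ^ 3) ^ α < ENNReal.ofReal (h / 16) := by
    rw [ENNReal.ofReal_rpow_of_pos (by positivity), ← ENNReal.ofReal_coe_nnreal,
      ← ENNReal.ofReal_mul C.coe_nonneg]
    exact (ENNReal.ofReal_lt_ofReal_iff (by positivity)).2 hnum
  exact lt_of_le_of_lt hstep1 (lt_of_lt_of_le hstep2 hlow)

end Crest.Agent.S0110
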