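import Crest.Statements.S0166
import Crest.Agent.S0166Aux.SpaceMid
import Crest.Agent.S0166Aux.SpacePlay
import Crest.Agent.S0166Aux.DiamondBound

set_option autoImplicit false
open Crest Crest.AnalysisR

namespace Crest.Agent.S0166

/-- There is a real Banach space (RealBanach record) that is separable, infinite-dimensional and reflexive, whose given norm has at every t > 0 averaged midpoint asymptotic modulus at least √(1 + t²/12) - 1 and at least (√(1 + t²/4) - 1)/2 and maximum-based midpoint modulus at least √(1 + t²/4) - 1, on which no equivalent norm is asymptotically uniformly convex, and in which for every k every map of the depth-k countably branching diamond graph of distortion at most D has 1 + k/4 ≤ D². -/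
theorem result :
    ∃ E : Crest.AnalysisR.RealBanach, E.IsSeparableInfiniteDim ∧ E.IsReflexive ∧
      (∀ t : ℝ, 0 < t → E.MidpointModulusGE E.norm t (Real.sqrt (1 + t ^ 2 / 12) - 1) ∧
        E.MidpointModulusGE E.norm t ((Real.sqrt (1 + t ^ 2 / 4) - 1) / 2) ∧
        E.MaxMidpointModulusGE E.norm t (Real.sqrt (1 + t ^ 2 / 4) - 1)) ∧
      (∀ N : E.X → ℝ, E.IsEquivNorm N → ¬ E.IsAUC N) ∧
      ∀ (k : ℕ) (f : Crest.AnalysisR.DiamondVertex k → E.X) (D : ℝ),
        E.HasDistortionLE k f D → 1 + (k : ℝ) / 4 ≤ D ^ 2 := by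
  have hplay := Crest.Agent.S0166Aux.esp_play
  have hmid := Crest.Agent.S0166Aux.esp_gmidGE
  refine ⟨Crest.Agent.S0166Aux.mkRB Crest.Agent.S0166Aux.ESp,
    ⟨Crest.Agent.S0166Aux.separable_ESp,
      Crest.Agent.S0166Aux.not_finiteDimensional_of_play
        (X := Crest.Agent.S0166Aux.ESp) (by norm_num) one_pos hplay⟩,
    Crest.Agent.S0166Aux.refl_ESp, ?_, ?_, ?_⟩
  · intro t ht
    have h1 : (1 : ℝ) ≤ Real.sqrt (1 + t ^ 2 / 4) := by
      rw [Real.one_le_sqrt]
      have : 0 ≤ t ^ 2 := sq_nonneg t
      linarith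
    refine ⟨(hmid t ht).mono ?_, (hmid t ht).mono ?_, (hmid t ht).toMax⟩
    · have : Real.sqrt (1 + t ^ 2 / 12) ≤ Real.sqrt (1 + t ^ 2 / 4) := by
        apply Real.sqrt_le_sqrt
        have : 0 ≤ t ^ 2 := sq_nonneg t
        linarith
      linarith
    · linarith
  · intro N hN
    exact Crest.Agent.S0166Aux.not_gauc_of_play
      (X := Crest.Agent.S0166Aux.ESp) (by norm_num) one_pos hplay N hN
  · intro k f D h
    exact Crest.Agent.S0166Aux.diamond_bound (X := Crest.Agent.S0166Aux.ESp)
      (fun t ht => (hmid t ht).toMax) k f D h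

end Crest.Agent.S0166
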