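import Crest.Statements.S0167
import Crest.Agent.S0166Aux.L1Mid
import Crest.Agent.S0166Aux.Daugavet

set_option autoImplicit false
open Crest Crest.AnalysisR

namespace Crest.Agent.S0167

/-- Let E be an infinite-dimensional closed subspace of the real L¹ of a probability space whose closed unit ball is totally bounded for convergence in measure and whose norm has the Daugavet property. Then at every unit x ∈ E and every t > 0 the averaged midpoint quantity sup_F inf_y ((‖x+ty‖+‖x-ty‖)/2 - 1) equals max(t/2, t-1) and the one-sided one sup_F inf_y (‖x+ty‖ - 1) equals max(0, t-2), as matching lower and upper bounds, and E admits no equivalent asymptotically uniformly convex norm. -/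
theorem result (Ω : Type) [MeasurableSpace Ω] (P : MeasureTheory.Measure Ω) [MeasureTheory.IsProbabilityMeasure P]
    (E : Submodule ℝ (MeasureTheory.Lp ℝ 1 P)) (hcl : IsClosed (E : Set (MeasureTheory.Lp ℝ 1 P)))
    (hinf : ¬ FiniteDimensional ℝ E)
    (htb : Crest.AnalysisR.L1Subspace.UnitBallTotallyBoundedInMeasure P E)
    (hD : Crest.AnalysisR.L1Subspace.HasDaugavetProperty E) :
    (∀ t : ℝ, 0 < t →
      (Crest.AnalysisR.L1Subspace.toRealBanach P E hcl).MidpointModulusGE
          (Crest.AnalysisR.L1Subspace.toRealBanach P E hcl).norm t (max (t / 2) (t - 1)) ∧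
        (Crest.AnalysisR.L1Subspace.toRealBanach P E hcl).MidpointModulusLE
          (Crest.AnalysisR.L1Subspace.toRealBanach P E hcl).norm t (max (t / 2) (t - 1)) ∧
        (Crest.AnalysisR.L1Subspace.toRealBanach P E hcl).OneSidedModulusGE
          (Crest.AnalysisR.L1Subspace.toRealBanach P E hcl).norm t (max 0 (t - 2)) ∧
        (Crest.AnalysisR.L1Subspace.toRealBanach P E hcl).OneSidedModulusLE
          (Crest.AnalysisR.L1Subspace.toRealBanach P E hcl).norm t (max 0 (t - 2))) ∧
      ∀ N : E → ℝ, (Crest.AnalysisR.L1Subspace.toRealBanach P E hcl).IsEquivNorm N →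
        ¬ (Crest.AnalysisR.L1Subspace.toRealBanach P E hcl).IsAUC N := by
  have hKP : Crest.Agent.S0166Aux.KP ↥E := Crest.Agent.S0166Aux.l1_KP P E hD
  refine ⟨fun t ht => ⟨?_, ?_, ?_, ?_⟩, ?_⟩
  · -- midpoint lower bound
    show Crest.Agent.S0166Aux.GMidGE (X := ↥E) t (max (t / 2) (t - 1))
    rcases le_total (t / 2) (t - 1) with h | h
    · rw [max_eq_right h]
      exact Crest.Agent.S0166Aux.gmidGE_sub_one t ht
    · rw [max_eq_left h]
      exact Crest.Agent.S0166Aux.l1_gmidGE_half P E htb t ht
  · exact Crest.Agent.S0166Aux.gmidLE_of_KP hKP t ht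
  · show Crest.Agent.S0166Aux.GOneGE (X := ↥E) t (max 0 (t - 2))
    rcases le_total 0 (t - 2) with h | h
    · rw [max_eq_right h]
      exact Crest.Agent.S0166Aux.goneGE_sub_two t ht
    · rw [max_eq_left h]
      exact Crest.Agent.S0166Aux.goneGE_zero t
  · exact Crest.Agent.S0166Aux.goneLE_of_KP hKP t ht
  · intro N hN
    -- a unit vector exists because `E` is not finite-dimensional
    have hne : ∃ x : E, ‖x‖ = 1 := by
      by_contra hcon
      apply hinf
      have hz : ∀ x : E, x = 0 := by
        intro x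
        by_contra hx
        apply hcon
        refine ⟨(‖x‖)⁻¹ • x, ?_⟩
        rw [norm_smul, norm_inv, norm_norm, inv_mul_cancel₀ (norm_ne_zero_iff.mpr hx)]
      haveI : Subsingleton E := ⟨fun a b => by rw [hz a, hz b]⟩
      infer_instance
    obtain ⟨x, hx⟩ := hne
    exact Crest.Agent.S0166Aux.not_gauc_of_play (X := ↥E) (B := 1) (δ := 2) (δ₀ := 1)
      (by norm_num) one_pos
      (fun j => ⟨x, hx.ge, Crest.Agent.S0166Aux.play_of_KP hKP x hx j⟩) N hN


end Crest.Agent.S0167
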