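import Crest.Statements.S0223

set_option autoImplicit false
open Crest Crest.ProbabilityR

namespace Crest.Agent.S0223

open Crest.ProbabilityR.Shuffle

/-- A position below `2 * m` is determined by its residue mod `m` and the half it lies in. -/
lemma eq_of_mod_eq {m x y : ℕ} (hx : x < 2 * m) (hy : y < 2 * m) (hmod : x % m = y % m)
    (hhalf : m ≤ x ↔ m ≤ y) : x = y := by
  by_cases h : m ≤ x
  · have h' : m ≤ y := hhalf.1 h
    have e1 : x % m = x - m := by
      rw [Nat.mod_eq_sub_mod h, Nat.mod_eq_of_lt (by omega)]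
    have e2 : y % m = y - m := by
      rw [Nat.mod_eq_sub_mod h', Nat.mod_eq_of_lt (by omega)]
    omega
  · have h' : ¬ m ≤ y := fun hh => h (hhalf.2 hh)
    have e1 : x % m = x := Nat.mod_eq_of_lt (by omega)
    have e2 : y % m = y := Nat.mod_eq_of_lt (by omega)
    omega

lemma stepPos_injective (m : ℕ) (c : Fin m → Bool) : Function.Injective (stepPos m c) := by
  intro x y h
  have hx := x.isLt
  have hy := y.isLt
  have hv : (stepPos m c x).val = (stepPos m c y).val := congrArg Fin.val h
  simp only [stepPos] at hv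
  have hmod : x.val % m = y.val % m := by
    split_ifs at hv <;> omega
  have hc : c ⟨x.val % m, Nat.mod_lt _ (by omega)⟩ = c ⟨y.val % m, Nat.mod_lt _ (by omega)⟩ := by
    congr 1
    exact Fin.ext hmod
  rw [hc, hmod] at hv
  have hhalf : m ≤ x.val ↔ m ≤ y.val := by
    by_cases h1 : m ≤ x.val <;> by_cases h2 : m ≤ y.val <;>
      cases hcy : c ⟨y.val % m, Nat.mod_lt _ (by omega)⟩ <;>
      simp [h1, h2, hcy] at hv ⊢
  exact Fin.ext (eq_of_mod_eq hx hy hmod hhalf)

lemma iterPos_injective (m : ℕ) : ∀ (t : ℕ) (cs : Fin t → Fin m → Bool),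
    Function.Injective (iterPos m t cs)
  | 0, _ => fun _ _ h => h
  | t + 1, cs => by
      intro x y h
      simp only [iterPos] at h
      exact iterPos_injective m t _ (stepPos_injective m _ h)

/-- The permutation realised by a table of bits. -/
noncomputable def perm (m t : ℕ) (cs : Fin t → Fin m → Bool) : Equiv.Perm (Fin (2 * m)) :=
  Equiv.ofBijective (iterPos m t cs) (Finite.injective_iff_bijective.1 (iterPos_injective m t cs))

lemma perm_eq_iff (m t : ℕ) (cs : Fin t → Fin m → Bool) (g : Equiv.Perm (Fin (2 * m))) :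
    iterPos m t cs = ⇑g ↔ perm m t cs = g := by
  constructor
  · intro h
    ext x
    simp [perm, h]
  · intro h
    rw [← h]
    rfl

lemma abs_bound (c : ℕ) (K N : ℝ) (hN : 0 < N) :
    (c : ℝ) / K + 1 / N - 2 * ((c : ℝ) / N) ≤ |(c : ℝ) / K - 1 / N| := by
  rcases Nat.eq_zero_or_pos c with rfl | hc
  · have h3 := neg_abs_le ((0 : ℝ) / K - 1 / N)
    simp only [Nat.cast_zero, zero_div, zero_sub, mul_zero, sub_zero, zero_add] at h3 ⊢
    linarith
  · have h1 : (1 : ℝ) ≤ c := by exact_mod_cast hc
    have h2 : 1 / N ≤ (c : ℝ) / N := by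
      apply div_le_div_of_nonneg_right h1 hN.le
    have h3 := le_abs_self ((c : ℝ) / K - 1 / N)
    linarith

/-- For a deck of `2 * 2 ^ d` cards and every number `t` of shuffles, the total variation distance between the law of the arrangement of the deck and the uniform law on all arrangements is at least `1 - 2 ^ (2 ^ d * t) / (2 * 2 ^ d)!`. -/
theorem result (d t : ℕ) :
    1 - (2 : ℝ) ^ (2 ^ d * t) / ((2 * 2 ^ d).factorial : ℝ)
      ≤ Crest.ProbabilityR.Shuffle.tvFromUniform (2 ^ d) t := by
  classical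
  generalize 2 ^ d = m
  set K : ℝ := (2 : ℝ) ^ (m * t) with hK
  set N : ℝ := ((2 * m).factorial : ℝ) with hN
  have hKpos : 0 < K := by positivity
  have hNpos : 0 < N := by
    have := Nat.factorial_pos (2 * m)
    rw [hN]
    exact_mod_cast this
  let cnt : Equiv.Perm (Fin (2 * m)) → ℕ := fun g =>
    (Finset.univ.filter (fun cs : Fin t → Fin m → Bool => perm m t cs = g)).card
  have hcard : (Fintype.card (Fin t → Fin m → Bool) : ℝ) = K := by
    simp [hK, pow_mul]
  have hprob : ∀ g : Equiv.Perm (Fin (2 * m)),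
      Crest.FinProb.uniformProb {cs : Fin t → Fin m → Bool | iterPos m t cs = ⇑g}
        = (cnt g : ℝ) / K := by
    intro g
    unfold Crest.FinProb.uniformProb
    rw [hcard]
    congr 2
    apply Finset.card_bij (fun cs _ => cs)
    · intro cs hcs
      simp only [Finset.mem_filter, Finset.mem_univ, true_and, Set.mem_ofPred_eq] at hcs ⊢
      exact (perm_eq_iff m t cs g).1 hcs
    · intro a _ b _ h
      exact h
    · intro cs hcs
      refine ⟨cs, ?_, rfl⟩
      simp only [Finset.mem_filter, Finset.mem_univ, true_and, Set.mem_ofPred_eq] at hcs ⊢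
      exact (perm_eq_iff m t cs g).2 hcs
  have hsum : (∑ g : Equiv.Perm (Fin (2 * m)), (cnt g : ℝ)) = K := by
    rw [← hcard]
    have := Finset.card_eq_sum_card_fiberwise (s := (Finset.univ : Finset (Fin t → Fin m → Bool)))
      (t := (Finset.univ : Finset (Equiv.Perm (Fin (2 * m))))) (f := perm m t)
      (fun _ _ => Finset.mem_univ _)
    rw [Finset.card_univ] at this
    rw [this]
    push_cast
    rfl
  have hcardN : ((Finset.univ : Finset (Equiv.Perm (Fin (2 * m)))).card : ℝ) = N := by
    rw [Finset.card_univ, Fintype.card_perm, Fintype.card_fin]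
  unfold Crest.ProbabilityR.Shuffle.tvFromUniform
  have hlow : (∑ g : Equiv.Perm (Fin (2 * m)),
      ((cnt g : ℝ) / K + 1 / N - 2 * ((cnt g : ℝ) / N))) ≤
      ∑ g : Equiv.Perm (Fin (2 * m)),
        |Crest.FinProb.uniformProb {cs : Fin t → Fin m → Bool | iterPos m t cs = ⇑g} - 1 / N| := by
    apply Finset.sum_le_sum
    intro g _
    rw [hprob g]
    exact abs_bound (cnt g) K N hNpos
  have hval : (∑ g : Equiv.Perm (Fin (2 * m)),
      ((cnt g : ℝ) / K + 1 / N - 2 * ((cnt g : ℝ) / N))) = 2 - 2 * (K / N) := by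
    have e1 : (∑ g : Equiv.Perm (Fin (2 * m)), (cnt g : ℝ) / K) = 1 := by
      rw [← Finset.sum_div, hsum, div_self hKpos.ne']
    have e2 : (∑ _g : Equiv.Perm (Fin (2 * m)), (1 : ℝ) / N) = 1 := by
      rw [Finset.sum_const, nsmul_eq_mul, hcardN, mul_one_div, div_self hNpos.ne']
    have e3 : (∑ g : Equiv.Perm (Fin (2 * m)), 2 * ((cnt g : ℝ) / N)) = 2 * (K / N) := by
      rw [← Finset.mul_sum, ← Finset.sum_div, hsum]
    rw [Finset.sum_sub_distrib, Finset.sum_add_distrib, e1, e2, e3]
    ring
  linarith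

end Crest.Agent.S0223
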