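import Crest.Statements.S0316
import Crest.Agent.S0316Aux.H42_Main
import Crest.Agent.S0316Aux.H74_Points
import Crest.Agent.S0316Aux.H89_Degen

set_option autoImplicit false
open Crest Crest.GeometryTopology

namespace Crest.Agent.S0316

open Crest.GeometryTopology.Quadric Crest.Agent.S0316Aux

/-- There is a Hamiltonian diffeomorphism of the complex quadric threefold (the zero set of z₀² + ⋯ + z₄² in complex projective 4-space, with the restricted Fubini–Study form) having exactly three fixed points, at least one of them degenerate. Hamiltonian isotopies are encoded by smooth lifts to the unit isotropic cone in ℂ⁵ obeying Hamilton's equation; points of the quadric are complex lines through cone points; degenerate means the differential of the time-one map fixes a nonzero tangent vector. -/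
theorem result :
    ∃ L : Crest.GeometryTopology.Quadric.HamiltonianConeLift,
      (Crest.GeometryTopology.Quadric.fixedLines L).ncard = 3 ∧
      Crest.GeometryTopology.Quadric.HasDegenerateFixedPoint L := by
  obtain ⟨LB, hLB⟩ := exists_lift_Btw
  obtain ⟨L, hL⟩ := exists_lift_Phi LB hLB
  refine ⟨L, ?_, H89.hasDegenerateFixedPoint L hL⟩
  refine H74.ncard_fixedLines_of_values L (fun z _ => hL z) ?_
  intro z hz hc
  obtain ⟨l, hl⟩ := hc
  have key := class_all z hz l hl
  have hz0 : ∀ {a b c : ℝ}, HasPlu z a b c →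
      plu z 0 1 = 0 ∧ plu z 0 2 = 0 ∧ plu z 0 3 = 0 ∧ plu z 0 4 = 0 := by
    intro a b c h
    have h0 : z 0 = 0 := h.1
    refine ⟨?_, ?_, ?_, ?_⟩ <;> simp [plu, h0]
  rcases key with h | ⟨q, hq, h⟩
  · obtain ⟨h01, h02, h03, h04⟩ := hz0 h
    obtain ⟨-, h12, h13, h14, h23, h24, h34⟩ := h
    exact ⟨⟨h01, h02, h03, h04, h13, h23, h34⟩, Or.inl ⟨h12, h14, h24⟩⟩
  · obtain ⟨h01, h02, h03, h04⟩ := hz0 h
    obtain ⟨-, h12, h13, h14, h23, h24, h34⟩ := h
    exact ⟨⟨h01, h02, h03, h04, h13, h23, h34⟩, Or.inr ⟨by rw [h12]; exact hq, h14, h24⟩⟩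

end Crest.Agent.S0316
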