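import Crest.Statements.S0324
import Crest.Agent.S0324Aux.Area
import Crest.Agent.S0324Aux.Area2
import Crest.Agent.S0324Aux.Cover
import Crest.Agent.S0324Aux.Proj

set_option autoImplicit false
open MeasureTheory
open scoped ENNReal
open Crest Crest.GeometryTopology Crest.GeometryTopology.Convex

namespace Crest.Agent.S0324

/-- The regular tetrahedron `K` with vertices `(±1, 0, 0)`, `(0, ±1, √2)` is covered by finitely many cylinders `Bᵢ + ℝ uᵢ`, each with unit direction `uᵢ` and base `Bᵢ` a triangle (convex hull of three points) in the plane `uᵢ^⊥`, whose total base area `∑ᵢ area(Bᵢ)` is smaller, by a positive margin, than half the area of the orthogonal projection of `K` onto `v^⊥` for every unit vector `v`; areas are 2-dimensional Hausdorff measure. -/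
theorem result :
    ∃ (m : ℕ) (u p q r : Fin m → EuclideanSpace ℝ (Fin 3)),
      (∀ i, ‖u i‖ = 1) ∧
      (∀ i, inner ℝ (p i) (u i) = 0 ∧ inner ℝ (q i) (u i) = 0 ∧ inner ℝ (r i) (u i) = 0) ∧
      convexHull ℝ {!₂[1, 0, 0], !₂[-1, 0, 0], !₂[0, 1, Real.sqrt 2], !₂[0, -1, Real.sqrt 2]} ⊆
        ⋃ i, {x : EuclideanSpace ℝ (Fin 3) | ∃ b ∈ convexHull ℝ {p i, q i, r i}, ∃ t : ℝ, x = b + t • u i} ∧
      ∃ δ : ℝ, 0 < δ ∧ ∀ v : EuclideanSpace ℝ (Fin 3), ‖v‖ = 1 →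
        ∑ i, (μH[(2 : ℝ)] (convexHull ℝ {p i, q i, r i})).toReal + δ ≤
          (μH[(2 : ℝ)] ((fun y => y - inner ℝ y v • v) '' convexHull ℝ {!₂[1, 0, 0], !₂[-1, 0, 0], !₂[0, 1, Real.sqrt 2], !₂[0, -1, Real.sqrt 2]})).toReal / 2 := by
  obtain ⟨κ, hκ, hκs⟩ := S0324Aux.exists_muHE_eq_mul_muH
  obtain ⟨m, u, p, q, r, -, hu, horth, hcov, hsum⟩ := S0324Aux.cover_core
  have hreal : ∀ s : Set (EuclideanSpace ℝ (Fin 3)),
      (μH[(2 : ℝ)] s).toReal = (μHE[2] s).toReal / κ := by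
    intro s
    rw [hκs s, ENNReal.toReal_mul, ENNReal.toReal_ofReal hκ.le]
    field_simp
  refine ⟨m, u, p, q, r, hu, horth, hcov, Real.sqrt 2 / 10 ^ 9 / κ, by positivity, ?_⟩
  intro v hv
  have h1 : ∀ i, (μH[(2 : ℝ)] (convexHull ℝ {p i, q i, r i})).toReal =
      (Real.sqrt (S0324Aux.gram2 (q i - p i) (r i - p i)) / 2) / κ := by
    intro i
    rw [hreal, S0324Aux.area_triangle, ENNReal.toReal_ofReal (by positivity)]
  have h2 : Real.sqrt 2 ≤ (μHE[2] ((fun y => y - inner ℝ y v • v) '' S0324Aux.Ktet)).toReal := by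
    have := S0324Aux.proj_area_ge v hv
    rw [ENNReal.ofReal_le_iff_le_toReal (S0324Aux.proj_area_lt_top v hv).ne] at this
    exact this
  simp only [h1]
  rw [← Finset.sum_div, hreal]
  have h3 : (∑ i, Real.sqrt (S0324Aux.gram2 (q i - p i) (r i - p i)) / 2) / κ
      ≤ Real.sqrt 2 * (1 / 2 - 1 / 10 ^ 9) / κ := by gcongr
  have h4 : Real.sqrt 2 / κ / 2 ≤
      (μHE[2] ((fun y => y - inner ℝ y v • v) '' S0324Aux.Ktet)).toReal / κ / 2 := by gcongr
  have h5 : Real.sqrt 2 * (1 / 2 - 1 / 10 ^ 9) / κ + Real.sqrt 2 / 10 ^ 9 / κ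
      = Real.sqrt 2 / κ / 2 := by
    field_simp
    ring
  calc _ ≤ Real.sqrt 2 * (1 / 2 - 1 / 10 ^ 9) / κ + Real.sqrt 2 / 10 ^ 9 / κ := by linarith
    _ = Real.sqrt 2 / κ / 2 := h5
    _ ≤ _ := h4

end Crest.Agent.S0324
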