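import Crest.Statements.S0325
import Crest.Agent.S0324Aux.Area
import Crest.Agent.S0324Aux.Area2
import Crest.Agent.S0324Aux.Cover
import Crest.Agent.S0324Aux.Proj
import Crest.Agent.S0324Aux.Pad

set_option autoImplicit false
open MeasureTheory
open scoped ENNReal
open Crest Crest.GeometryTopology Crest.GeometryTopology.Convex

namespace Crest.Agent.S0325

/-- Let K be the regular tetrahedron with vertices (±1, 0, 0), (0, ±1, √2); areas are Lebesgue-normalised 2-dimensional Hausdorff measure. (1) The least area of an orthogonal projection of K onto a plane is √2: each map y ↦ y − ⟪y, v⟫ v with ‖v‖ = 1 sends K to a set of area ≥ √2, equal for some v. (2) For every 0 < ε ≤ 5·10⁻⁴, K is covered by 2⌈2/ε²⌉ cylinders Bᵢ + ℝ uᵢ, uᵢ a unit vector, Bᵢ a triangle (convex hull of three points) in uᵢ^⊥, of total area A with ‖A/√2 − 1/2 + 13 ε²/6000‖ ≤ 2 ε⁴. -/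
theorem result :
    ((∀ v : EuclideanSpace ℝ (Fin 3), ‖v‖ = 1 →
        ENNReal.ofReal (Real.sqrt 2) ≤ μHE[2] ((fun y => y - inner ℝ y v • v) '' convexHull ℝ {!₂[1, 0, 0], !₂[-1, 0, 0], !₂[0, 1, Real.sqrt 2], !₂[0, -1, Real.sqrt 2]})) ∧
      ∃ v : EuclideanSpace ℝ (Fin 3), ‖v‖ = 1 ∧
        μHE[2] ((fun y => y - inner ℝ y v • v) '' convexHull ℝ {!₂[1, 0, 0], !₂[-1, 0, 0], !₂[0, 1, Real.sqrt 2], !₂[0, -1, Real.sqrt 2]}) = ENNReal.ofReal (Real.sqrt 2)) ∧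
    ∀ ε : ℝ, 0 < ε → ε ≤ 1 / 2000 →
      ∃ (u p q r : Fin (2 * ⌈2 / ε ^ 2⌉₊) → EuclideanSpace ℝ (Fin 3)),
        (∀ i, ‖u i‖ = 1) ∧
        (∀ i, inner ℝ (p i) (u i) = 0 ∧ inner ℝ (q i) (u i) = 0 ∧ inner ℝ (r i) (u i) = 0) ∧
        convexHull ℝ {!₂[1, 0, 0], !₂[-1, 0, 0], !₂[0, 1, Real.sqrt 2], !₂[0, -1, Real.sqrt 2]} ⊆
          ⋃ i, {x : EuclideanSpace ℝ (Fin 3) | ∃ b ∈ convexHull ℝ {p i, q i, r i}, ∃ t : ℝ, x = b + t • u i} ∧
        abs ((∑ i, (μHE[2] (convexHull ℝ ({p i, q i, r i} : Set (EuclideanSpace ℝ (Fin 3))))).toReal) / Real.sqrt 2 -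
            (1 / 2 - 13 / 6000 * ε ^ 2)) ≤ 2 * ε ^ 4 := by
  refine ⟨⟨fun v hv => S0324Aux.proj_area_ge v hv, S0324Aux.proj_area_eq⟩, ?_⟩
  intro ε hε hε'
  obtain ⟨m, u, p, q, r, hm, hu, horth, hcov, hsum⟩ := S0324Aux.cover_core
  have hs2 : 0 < Real.sqrt 2 := by positivity
  -- the number of cylinders is large enough
  have hε2 : ε ^ 2 ≤ 1 / 4000000 := by
    have : ε ^ 2 ≤ (1 / 2000) ^ 2 := by gcongr
    linarith [this]
  have hn : m + 1 ≤ 2 * ⌈2 / ε ^ 2⌉₊ := by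
    have h1 : (8000000 : ℝ) ≤ 2 / ε ^ 2 := by
      rw [le_div_iff₀ (by positivity)]
      nlinarith
    have h2 : (8000000 : ℝ) ≤ (⌈2 / ε ^ 2⌉₊ : ℝ) := h1.trans (Nat.le_ceil _)
    have h3 : 8000000 ≤ ⌈2 / ε ^ 2⌉₊ := by exact_mod_cast h2
    omega
  obtain ⟨d, hd⟩ : ∃ d, 2 * ⌈2 / ε ^ 2⌉₊ = m + (d + 1) :=
    ⟨2 * ⌈2 / ε ^ 2⌉₊ - (m + 1), by omega⟩
  rw [hd]
  have hT : ∑ i, Real.sqrt (S0324Aux.gram2 (q i - p i) (r i - p i)) / 2 ≤
      Real.sqrt 2 * (1 / 2 - 13 / 6000 * ε ^ 2) := by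
    refine hsum.trans ?_
    gcongr
    nlinarith
  obtain ⟨u', p', q', r', hu', horth', hcov', hsum'⟩ :=
    S0324Aux.pad_cover S0324Aux.Ktet m d u p q r hu horth hcov _ hT
  refine ⟨u', p', q', r', hu', horth', hcov', ?_⟩
  have h1 : ∀ i, (μHE[2] (convexHull ℝ ({p' i, q' i, r' i} :
      Set (EuclideanSpace ℝ (Fin 3))))).toReal =
      Real.sqrt (S0324Aux.gram2 (q' i - p' i) (r' i - p' i)) / 2 := by
    intro i
    rw [S0324Aux.area_triangle, ENNReal.toReal_ofReal (by positivity)]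
  simp only [h1]
  rw [hsum', mul_div_cancel_left₀ _ hs2.ne', sub_self, abs_zero]
  positivity

end Crest.Agent.S0325
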