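import Crest.Statements.S0327
import Crest.Agent.S0327Aux.StdCover

set_option autoImplicit false
open MeasureTheory
open scoped ENNReal
open Crest Crest.GeometryTopology Crest.GeometryTopology.Convex

namespace Crest.Agent.S0327

/-- Let K ⊂ ℝ³ be a regular tetrahedron (convex hull of four points with equal pairwise distances ℓ > 0); areas are Lebesgue-normalised 2-dimensional Hausdorff measure, π_v y = y − ⟪y, v⟫ v. (1) Finitely many cylinders Bᵢ + ℝ uᵢ, ‖uᵢ‖ = 1, with parallelogram bases Bᵢ = cᵢ + [0,1]aᵢ + [0,1]bᵢ in uᵢ^⊥ cover K, ∑ᵢ area(Bᵢ) being below half of area(π_v K) by a positive margin for all unit v, and ∑ᵢ area(Bᵢ)/area(π_{uᵢ} K) < 1/2. (2) The same with bounded relatively open subsets of the uᵢ^⊥ as bases. -/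
theorem result
    (w : Fin 4 → EuclideanSpace ℝ (Fin 3)) (ℓ : ℝ) (hℓ : 0 < ℓ)
    (hw : ∀ i j, i ≠ j → dist (w i) (w j) = ℓ) :
    (∃ (k : ℕ) (u c a b : Fin k → EuclideanSpace ℝ (Fin 3)),
      (∀ i, ‖u i‖ = 1) ∧
      (∀ i, inner ℝ (c i) (u i) = 0 ∧ inner ℝ (a i) (u i) = 0 ∧ inner ℝ (b i) (u i) = 0) ∧
      convexHull ℝ (Set.range w) ⊆ ⋃ i, {x : EuclideanSpace ℝ (Fin 3) |
        ∃ s ∈ Set.Icc (0 : ℝ) 1, ∃ t ∈ Set.Icc (0 : ℝ) 1, ∃ τ : ℝ, x = c i + s • a i + t • b i + τ • u i} ∧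
      (∃ δ : ℝ, 0 < δ ∧ ∀ v : EuclideanSpace ℝ (Fin 3), ‖v‖ = 1 →
        (∑ i, (μHE[2] {x : EuclideanSpace ℝ (Fin 3) |
            ∃ s ∈ Set.Icc (0 : ℝ) 1, ∃ t ∈ Set.Icc (0 : ℝ) 1, x = c i + s • a i + t • b i}).toReal) + δ ≤
          (μHE[2] ((fun y => y - inner ℝ y v • v) '' convexHull ℝ (Set.range w))).toReal / 2) ∧
      ∑ i, (μHE[2] {x : EuclideanSpace ℝ (Fin 3) |
            ∃ s ∈ Set.Icc (0 : ℝ) 1, ∃ t ∈ Set.Icc (0 : ℝ) 1, x = c i + s • a i + t • b i}).toReal /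
          (μHE[2] ((fun y => y - inner ℝ y (u i) • u i) '' convexHull ℝ (Set.range w))).toReal < 1 / 2) ∧
    (∃ (k : ℕ) (u : Fin k → EuclideanSpace ℝ (Fin 3)) (B : Fin k → Set (EuclideanSpace ℝ (Fin 3))),
      (∀ i, ‖u i‖ = 1) ∧
      (∀ i, Bornology.IsBounded (B i) ∧ ∃ O : Set (EuclideanSpace ℝ (Fin 3)), IsOpen O ∧
        B i = O ∩ {x | inner ℝ x (u i) = 0}) ∧
      convexHull ℝ (Set.range w) ⊆
        ⋃ i, {x : EuclideanSpace ℝ (Fin 3) | ∃ y ∈ B i, ∃ τ : ℝ, x = y + τ • u i} ∧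
      (∃ δ : ℝ, 0 < δ ∧ ∀ v : EuclideanSpace ℝ (Fin 3), ‖v‖ = 1 →
        (∑ i, (μHE[2] (B i)).toReal) + δ ≤
          (μHE[2] ((fun y => y - inner ℝ y v • v) '' convexHull ℝ (Set.range w))).toReal / 2) ∧
      ∑ i, (μHE[2] (B i)).toReal /
          (μHE[2] ((fun y => y - inner ℝ y (u i) • u i) '' convexHull ℝ (Set.range w))).toReal < 1 / 2)  := by
  obtain ⟨k, u, c, a, b, hu, hperp, hcov, hsum, hproj⟩ :=
    Crest.Agent.S0327Aux.general_pgram_cover w ℓ hℓ hw
  have hA : 0 < (ℓ / 2) ^ 2 * Real.sqrt 2 := by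
    have : 0 < Real.sqrt 2 := Real.sqrt_pos.mpr (by norm_num)
    positivity
  constructor
  · refine ⟨k, u, c, a, b, hu, hperp, ?_, ?_⟩
    · intro x hx
      obtain ⟨i, hi⟩ := Set.mem_iUnion.mp (hcov hx)
      obtain ⟨y, ⟨s, hs, t, ht, rfl⟩, τ, rfl⟩ := hi
      exact Set.mem_iUnion.mpr ⟨i, s, hs, t, ht, τ, rfl⟩
    · have key := Crest.Agent.S0327Aux.assemble
        (fun i => (μHE[2] (Crest.Agent.S0324Aux.pgram (c i) (a i) (b i))).toReal)
        (fun i => ENNReal.toReal_nonneg)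
        (fun v => (μHE[2] ((fun y => y - inner ℝ y v • v) '' convexHull ℝ (Set.range w))).toReal)
        u hu _ (1 / 10 ^ 10) hA (by positivity) hproj
        (by simpa only [Crest.Agent.S0327Aux.area_pgram_toReal] using hsum)
      exact key
  · set A₀ := (ℓ / 2) ^ 2 * Real.sqrt 2 with hA₀
    set η : ℝ := A₀ * (1 / 10 ^ 11) / (k + 1) with hη
    have hηpos : 0 < η := by positivity
    have hne : ∀ i, u i ≠ 0 := by
      intro i h
      have := hu i
      rw [h, norm_zero] at this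
      exact zero_ne_one this
    have hplane : ∀ i, ∀ x ∈ Crest.Agent.S0324Aux.pgram (c i) (a i) (b i),
        inner ℝ x (u i) = 0 := by
      rintro i _ ⟨s, -, t, -, rfl⟩
      rw [inner_add_left, inner_add_left, inner_smul_left, inner_smul_left, (hperp i).1,
        (hperp i).2.1, (hperp i).2.2]
      simp
    choose O hOopen hPO hObdd hOarea using fun i =>
      Crest.Agent.S0324Aux.exists_open_base (u i) (hne i) _
        (Crest.Agent.S0327Aux.isCompact_pgram (c i) (a i) (b i)) (hplane i) η hηpos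
    refine ⟨k, u, fun i => O i ∩ {x | inner ℝ x (u i) = 0}, hu,
      fun i => ⟨hObdd i, O i, hOopen i, rfl⟩, ?_, ?_⟩
    · intro x hx
      obtain ⟨i, hi⟩ := Set.mem_iUnion.mp (hcov hx)
      obtain ⟨y, hy, τ, rfl⟩ := hi
      exact Set.mem_iUnion.mpr ⟨i, y, ⟨hPO i hy, hplane i y hy⟩, τ, rfl⟩
    · have key := Crest.Agent.S0327Aux.assemble
        (fun i => (μHE[2] (O i ∩ {x | inner ℝ x (u i) = 0})).toReal)
        (fun i => ENNReal.toReal_nonneg)
        (fun v => (μHE[2] ((fun y => y - inner ℝ y v • v) '' convexHull ℝ (Set.range w))).toReal)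
        u hu A₀ (1 / 10 ^ 11) hA (by positivity) hproj ?_
      · exact key
      · calc ∑ i, (μHE[2] (O i ∩ {x | inner ℝ x (u i) = 0})).toReal
            ≤ ∑ i, (Real.sqrt (Crest.Agent.S0324Aux.gram2 (a i) (b i)) + η) := by
              apply Finset.sum_le_sum
              intro i _
              have := hOarea i
              rwa [Crest.Agent.S0327Aux.area_pgram_toReal] at this
          _ = ∑ i, Real.sqrt (Crest.Agent.S0324Aux.gram2 (a i) (b i)) + k * η := by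
              rw [Finset.sum_add_distrib]
              simp
          _ ≤ A₀ * (1 / 2 - 1 / 10 ^ 10) + A₀ * (1 / 10 ^ 11) := by
              apply add_le_add hsum
              rw [hη, mul_div_assoc', div_le_iff₀ (by positivity)]
              have : 0 ≤ A₀ * (1 / 10 ^ 11) := by positivity
              nlinarith
          _ ≤ A₀ * (1 / 2 - 1 / 10 ^ 11) := by
              nlinarith

end Crest.Agent.S0327
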