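import Crest.Statements.S0328
import Crest.Agent.S0328Aux.PieceLemma

set_option autoImplicit false
open MeasureTheory
open scoped ENNReal
open Crest Crest.GeometryTopology Crest.GeometryTopology.Convex

namespace Crest.Agent.S0328

/-- Unit e; a, b, p₀ ∈ e^⊥, a, b independent; α < β; L > 0; R ≥ 0, λ both continuous on [α, β]; w(t) ∈ e^⊥, w′ = λ(t)(a + tb). S = {p₀ + ρ(a + t b) + s(e + w t) : α ≤ t ≤ β, 0 ≤ ρ ≤ R t, ‖s‖ ≤ L}; A = κ ∫_α^β R²/(2√(1 + ‖w‖²)), κ = area spanned by a, b. For η > 0 a δ > 0 makes each partition t₀ < … < t_N of [α, β] of mesh ≤ δ, tags cᵢ, admit N cylinders (axes e + w(cᵢ), nondegenerate triangle bases) covering S, total area within η of A; same for S's pieces tᵢ ≤ t ≤ tᵢ₊₁ projected along these axes. -/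
theorem result
    (e a b p₀ : EuclideanSpace ℝ (Fin 3)) (he : ‖e‖ = 1)
    (ha : inner ℝ a e = 0) (hb : inner ℝ b e = 0) (hp₀ : inner ℝ p₀ e = 0)
    (hab : LinearIndependent ℝ ![a, b]) (L : ℝ) (hL : 0 < L) (α β : ℝ) (hαβ : α < β)
    (R : ℝ → ℝ) (hR : ContinuousOn R (Set.Icc α β)) (hR0 : ∀ t ∈ Set.Icc α β, 0 ≤ R t)
    (w : ℝ → EuclideanSpace ℝ (Fin 3)) (hw : ∀ t ∈ Set.Icc α β, inner ℝ (w t) e = 0)
    (lam : ℝ → ℝ) (hlam : ContinuousOn lam (Set.Icc α β))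
    (hw' : ∀ t ∈ Set.Icc α β, HasDerivWithinAt w (lam t • (a + t • b)) (Set.Icc α β) t)
    (η : ℝ) (hη : 0 < η) :
    ∃ δ : ℝ, 0 < δ ∧ ∀ (N : ℕ) (t : Fin (N + 1) → ℝ) (c : Fin N → ℝ),
      StrictMono t → t 0 = α → t (Fin.last N) = β →
      (∀ i : Fin N, t i.succ - t i.castSucc ≤ δ) →
      (∀ i : Fin N, t i.castSucc ≤ c i ∧ c i ≤ t i.succ) →
      (∃ (p q r : Fin N → EuclideanSpace ℝ (Fin 3)),
        (∀ i, inner ℝ (p i) (e + w (c i)) = 0 ∧ inner ℝ (q i) (e + w (c i)) = 0 ∧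
          inner ℝ (r i) (e + w (c i)) = 0) ∧
        (∀ i, AffineIndependent ℝ ![p i, q i, r i]) ∧
        {x : EuclideanSpace ℝ (Fin 3) | ∃ τ ∈ Set.Icc α β, ∃ ρ ∈ Set.Icc 0 (R τ), ∃ s : ℝ, abs s ≤ L ∧
            x = p₀ + ρ • (a + τ • b) + s • (e + w τ)} ⊆
          ⋃ i, {x : EuclideanSpace ℝ (Fin 3) | ∃ y ∈ convexHull ℝ {p i, q i, r i}, ∃ σ : ℝ,
            x = y + σ • (e + w (c i))} ∧
        abs ((∑ i, (μHE[2] (convexHull ℝ ({p i, q i, r i} : Set (EuclideanSpace ℝ (Fin 3))))).toReal) -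
            Real.sqrt (‖a‖ ^ 2 * ‖b‖ ^ 2 - inner ℝ a b ^ 2) *
              ∫ τ in α..β, R τ ^ 2 / (2 * Real.sqrt (1 + ‖w τ‖ ^ 2))) ≤ η) ∧
      abs ((∑ i : Fin N, (μHE[2] ((fun y => y - (inner ℝ y (e + w (c i)) / ‖e + w (c i)‖ ^ 2) • (e + w (c i))) ''
            {x : EuclideanSpace ℝ (Fin 3) | ∃ τ ∈ Set.Icc (t i.castSucc) (t i.succ), ∃ ρ ∈ Set.Icc 0 (R τ),
              ∃ s : ℝ, abs s ≤ L ∧ x = p₀ + ρ • (a + τ • b) + s • (e + w τ)})).toReal) -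
          Real.sqrt (‖a‖ ^ 2 * ‖b‖ ^ 2 - inner ℝ a b ^ 2) *
            ∫ τ in α..β, R τ ^ 2 / (2 * Real.sqrt (1 + ‖w τ‖ ^ 2))) ≤ η := by
  classical
  have hβα : 0 < β - α := sub_pos.mpr hαβ
  obtain ⟨δ, hδ, hpiece⟩ := Crest.Agent.S0328Aux.piece_lemma e a b p₀ he ha hb hab L hL α β hαβ R hR hR0
    w hw lam hlam hw' (η / (β - α)) (div_pos hη hβα)
  refine ⟨δ, hδ, ?_⟩
  intro N t c ht ht0 htN hmesh htag
  have hlo : ∀ i : Fin (N + 1), α ≤ t i := fun i => ht0 ▸ ht.monotone (Fin.zero_le i)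
  have hhi : ∀ i : Fin (N + 1), t i ≤ β := fun i => htN ▸ ht.monotone (Fin.le_last i)
  have hP := fun i : Fin N => hpiece (t i.castSucc) (t i.succ) (c i) (hlo _)
    (ht (Fin.castSucc_lt_succ)) (hhi _) (hmesh i) (htag i).1 (htag i).2
  -- the integrand
  set f : ℝ → ℝ := fun τ => R τ ^ 2 / (2 * Real.sqrt (1 + ‖w τ‖ ^ 2)) with hfdef
  have hwc : ContinuousOn w (Set.Icc α β) := fun x hx => (hw' x hx).continuousWithinAt
  have hf : ContinuousOn f (Set.Icc α β) := by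
    apply ContinuousOn.div (hR.pow 2)
    · exact continuousOn_const.mul
        (Real.continuous_sqrt.comp_continuousOn (continuousOn_const.add (hwc.norm.pow 2)))
    · intro x _
      have : 0 < Real.sqrt (1 + ‖w x‖ ^ 2) := Real.sqrt_pos.mpr (by positivity)
      positivity
  have hint : ∀ i j : Fin (N + 1), IntervalIntegrable f volume (t i) (t j) := by
    intro i j
    apply ContinuousOn.intervalIntegrable
    exact hf.mono (Set.uIcc_subset_Icc ⟨hlo i, hhi i⟩ ⟨hlo j, hhi j⟩)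
  have hsumI : ∑ i : Fin N, ∫ x in (t i.castSucc)..(t i.succ), f x = ∫ x in α..β, f x := by
    rw [Crest.Agent.S0328Aux.sum_integral_pieces t f hint, ht0, htN]
  have hsumD : ∑ i : Fin N, (t i.succ - t i.castSucc) = β - α := by
    rw [Crest.Agent.S0328Aux.sum_length_pieces t, ht0, htN]
  -- summation of the piecewise bounds
  have hsum : ∀ Z : Fin N → ℝ,
      (∀ i, |Z i - Real.sqrt (‖a‖ ^ 2 * ‖b‖ ^ 2 - inner ℝ a b ^ 2) *
        ∫ τ in (t i.castSucc)..(t i.succ), f τ| ≤ η / (β - α) * (t i.succ - t i.castSucc)) →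
      |(∑ i, Z i) - Real.sqrt (‖a‖ ^ 2 * ‖b‖ ^ 2 - inner ℝ a b ^ 2) * ∫ τ in α..β, f τ| ≤ η := by
    intro Z hZ
    rw [← hsumI, Finset.mul_sum, ← Finset.sum_sub_distrib]
    calc _ ≤ ∑ i, |Z i - Real.sqrt (‖a‖ ^ 2 * ‖b‖ ^ 2 - inner ℝ a b ^ 2) *
            ∫ τ in (t i.castSucc)..(t i.succ), f τ| := Finset.abs_sum_le_sum_abs _ _
      _ ≤ ∑ i, η / (β - α) * (t i.succ - t i.castSucc) := Finset.sum_le_sum (fun i _ => hZ i)
      _ = η := by rw [← Finset.mul_sum, hsumD]; field_simp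
  constructor
  · choose p q r h1 h2 h3 h4 using fun i => (hP i).1
    refine ⟨p, q, r, h1, h2, ?_, hsum _ h4⟩
    rintro x ⟨τ, hτ, ρ, hρ, s, hs, rfl⟩
    obtain ⟨i, hi0, hi1⟩ := Crest.Agent.S0328Aux.exists_piece t τ (ht0 ▸ hτ.1) (Fin.last N)
      (htN ▸ hτ.2) (by rw [ht0, htN]; exact hαβ)
    rw [Set.mem_iUnion]
    refine ⟨i, _, h3 i _ ⟨τ, ⟨hi0, hi1⟩, ρ, hρ, s, hs, rfl⟩,
      inner ℝ (p₀ + ρ • (a + τ • b) + s • (e + w τ)) (e + w (c i)) / ‖e + w (c i)‖ ^ 2, ?_⟩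
    unfold Crest.Agent.S0324Aux.projAlong
    abel
  · exact hsum _ (fun i => (hP i).2)

end Crest.Agent.S0328
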