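import Crest.Statements.S0329
import Crest.Agent.S0326
import Crest.Agent.S0329Aux.Lift

set_option autoImplicit false
open MeasureTheory
open scoped ENNReal
open Crest Crest.GeometryTopology Crest.GeometryTopology.Convex

namespace Crest.Agent.S0329

/-- Let h, M > 0, D ⊂ ℝ² be compact with Lebesgue-null boundary, and V : ℝ² → ℝ² be C¹ on an open set containing D with tr DV(p) = 0 and −1/M² < det DV(p) < 0 for p ∈ D. For every ε > 0 the set of points (x, p₁ + x V₁(p), h (p₂ + x V₂(p))) ∈ ℝ³ with p ∈ D, −M ≤ x ≤ M is covered by finitely many cylinders Bᵢ + ℝ uᵢ, ‖uᵢ‖ = 1, with bases Bᵢ bounded relatively open subsets of the planes uᵢ^⊥ and ∑ᵢ area(Bᵢ) ≤ h ∫_D (1 + V₁² + h² V₂²)^(−1/2) + ε (areas: normalised 2-dimensional Hausdorff measure). -/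
theorem result
    (h M : ℝ) (hh : 0 < h) (hM : 0 < M) (D : Set (EuclideanSpace ℝ (Fin 2))) (hD : IsCompact D)
    (hbd : volume (frontier D) = 0)
    (V : EuclideanSpace ℝ (Fin 2) → EuclideanSpace ℝ (Fin 2)) (U : Set (EuclideanSpace ℝ (Fin 2)))
    (hU : IsOpen U) (hDU : D ⊆ U) (hV : ContDiffOn ℝ 1 V U)
    (htr : ∀ p ∈ D, LinearMap.trace ℝ _ (fderiv ℝ V p).toLinearMap = 0)
    (hdet : ∀ p ∈ D, -(M ^ 2)⁻¹ < LinearMap.det (fderiv ℝ V p).toLinearMap ∧
      LinearMap.det (fderiv ℝ V p).toLinearMap < 0)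
    (ε : ℝ) (hε : 0 < ε) :
    ∃ (k : ℕ) (u : Fin k → EuclideanSpace ℝ (Fin 3)) (B : Fin k → Set (EuclideanSpace ℝ (Fin 3))),
      (∀ i, ‖u i‖ = 1) ∧
      (∀ i, Bornology.IsBounded (B i) ∧ ∃ O : Set (EuclideanSpace ℝ (Fin 3)), IsOpen O ∧
        B i = O ∩ {x | inner ℝ x (u i) = 0}) ∧
      {z : EuclideanSpace ℝ (Fin 3) | ∃ p ∈ D, ∃ x : ℝ, abs x ≤ M ∧
          z = !₂[x, p 0 + x * V p 0, h * (p 1 + x * V p 1)]} ⊆
        ⋃ i, {z : EuclideanSpace ℝ (Fin 3) | ∃ y ∈ B i, ∃ τ : ℝ, z = y + τ • u i} ∧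
      ∑ i, (μHE[2] (B i)).toReal ≤
        h * (∫ p in D, 1 / Real.sqrt (1 + (V p 0) ^ 2 + h ^ 2 * (V p 1) ^ 2)) + ε := by
  classical
  obtain ⟨k, c, a, b, g, hsq, hcov, hsum⟩ := Crest.Agent.S0326.result D hD V U hU hDU hV M h hM hh htr
    (fun p hp => ⟨(hdet p hp).1, (hdet p hp).2.le⟩) (ε / (2 * h)) (by positivity)
  -- notation
  let n : Fin k → EuclideanSpace ℝ (Fin 3) := fun i => S0329Aux.axis h (g i)
  let u : Fin k → EuclideanSpace ℝ (Fin 3) := fun i => (‖n i‖)⁻¹ • n i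
  let P : Fin k → Set (EuclideanSpace ℝ (Fin 3)) := fun i =>
    S0324Aux.pgram (S0324Aux.projAlong (n i) (S0329Aux.lift h (c i)))
      (S0324Aux.projAlong (n i) (S0329Aux.lift h (a i)))
      (S0324Aux.projAlong (n i) (S0329Aux.lift h (b i)))
  have hn0 : ∀ i, n i ≠ 0 := fun i => S0329Aux.axis_ne_zero h (g i)
  have hnpos : ∀ i, 0 < ‖n i‖ := fun i => norm_pos_iff.mpr (hn0 i)
  have hu1 : ∀ i, ‖u i‖ = 1 := fun i => by
    simp only [u, norm_smul, norm_inv, norm_norm]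
    exact inv_mul_cancel₀ (hnpos i).ne'
  have hu0 : ∀ i, u i ≠ 0 := fun i => by
    intro H
    have := hu1 i
    rw [H, norm_zero] at this
    exact zero_ne_one this
  have hperp : ∀ i (y : EuclideanSpace ℝ (Fin 3)), inner ℝ (S0324Aux.projAlong (n i) y) (u i) = 0 := by
    intro i y
    simp only [u, inner_smul_right, S0324Aux.inner_projAlong (n i) y (hn0 i), mul_zero]
  have hPu : ∀ i, ∀ x ∈ P i, inner ℝ x (u i) = 0 := by
    rintro i x ⟨s, -, t, -, rfl⟩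
    rw [inner_add_left, inner_add_left, inner_smul_left, inner_smul_left, hperp, hperp, hperp]
    simp
  have hη : 0 < ε / (2 * ((k : ℝ) + 1)) := by positivity
  choose O hOopen hPO hObdd hOarea using fun i =>
    S0324Aux.exists_open_base (u i) (hu0 i) (P i) (S0329Aux.isCompact_pgram _ _ _) (hPu i)
      (ε / (2 * ((k : ℝ) + 1))) hη
  refine ⟨k, u, fun i => O i ∩ {x | inner ℝ x (u i) = 0}, hu1,
    fun i => ⟨hObdd i, O i, hOopen i, rfl⟩, ?_, ?_⟩
  · -- covering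
    rintro z ⟨p, hp, x, hx, rfl⟩
    have hmem : ((x, p + x • V p) : ℝ × EuclideanSpace ℝ (Fin 2)) ∈
        {z : ℝ × EuclideanSpace ℝ (Fin 2) | ∃ p ∈ D, abs z.1 ≤ M ∧ z.2 = p + z.1 • V p} :=
      ⟨p, hp, hx, rfl⟩
    obtain ⟨i, hi⟩ := Set.mem_iUnion.mp (hcov hmem)
    obtain ⟨s, hs, t, ht, hst⟩ := hi
    simp only at hst
    refine Set.mem_iUnion.mpr ⟨i, ?_⟩
    set q : EuclideanSpace ℝ (Fin 3) :=
      S0329Aux.lift h (c i) + s • S0329Aux.lift h (a i) + t • S0329Aux.lift h (b i) with hq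
    have h0 := congrFun (congrArg (fun v : EuclideanSpace ℝ (Fin 2) => (v : Fin 2 → ℝ)) hst) 0
    have h1 := congrFun (congrArg (fun v : EuclideanSpace ℝ (Fin 2) => (v : Fin 2 → ℝ)) hst) 1
    simp at h0 h1
    have hz : (!₂[x, p 0 + x * V p 0, h * (p 1 + x * V p 1)] : EuclideanSpace ℝ (Fin 3))
        = q + x • n i := by
      ext j
      fin_cases j
      · simp [hq, n, S0329Aux.lift, S0329Aux.axis]
      · simp [hq, n, S0329Aux.lift, S0329Aux.axis, h0]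
      · simp [hq, n, S0329Aux.lift, S0329Aux.axis, h1]
        ring
    have hproj : S0324Aux.projAlong (n i) q ∈ P i := by
      refine ⟨s, hs, t, ht, ?_⟩
      rw [hq, S0329Aux.projAlong_add, S0329Aux.projAlong_add, S0329Aux.projAlong_smul,
        S0329Aux.projAlong_smul]
    refine ⟨S0324Aux.projAlong (n i) q, ⟨hPO i hproj, hPu i _ hproj⟩,
      (inner ℝ q (n i) / ‖n i‖ ^ 2 + x) * ‖n i‖, ?_⟩
    rw [hz]
    simp only [u, S0324Aux.projAlong, smul_smul]
    rw [mul_assoc, mul_inv_cancel₀ (hnpos i).ne', mul_one, add_smul]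
    abel
  · -- area
    have hk : (k : ℝ) * (ε / (2 * ((k : ℝ) + 1))) ≤ ε / 2 := by
      rw [show (k : ℝ) * (ε / (2 * ((k : ℝ) + 1))) = (ε / 2) * ((k : ℝ) / ((k : ℝ) + 1)) by
        field_simp]
      have : (k : ℝ) / ((k : ℝ) + 1) ≤ 1 := by
        rw [div_le_one (by positivity)]
        linarith
      nlinarith
    calc ∑ i, (μHE[2] (O i ∩ {x | inner ℝ x (u i) = 0})).toReal
        ≤ ∑ i : Fin k, ((μHE[2] (P i)).toReal + ε / (2 * ((k : ℝ) + 1))) :=
          Finset.sum_le_sum fun i _ => hOarea i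
      _ = ∑ i : Fin k, h * (‖a i‖ ^ 2 / Real.sqrt (1 + (g i 0) ^ 2 + h ^ 2 * (g i 1) ^ 2))
            + (k : ℝ) * (ε / (2 * ((k : ℝ) + 1))) := by
          rw [Finset.sum_add_distrib]
          congr 1
          · exact Finset.sum_congr rfl fun i _ =>
              S0329Aux.area_base h hh (c i) (a i) (b i) (g i) (hsq i).2.1 (hsq i).2.2
          · simp
      _ ≤ h * ((∫ p in D, 1 / Real.sqrt (1 + (V p 0) ^ 2 + h ^ 2 * (V p 1) ^ 2)) + ε / (2 * h))
            + ε / 2 := by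
          rw [← Finset.mul_sum]
          exact add_le_add (mul_le_mul_of_nonneg_left hsum hh.le) hk
      _ = h * (∫ p in D, 1 / Real.sqrt (1 + (V p 0) ^ 2 + h ^ 2 * (V p 1) ^ 2)) + ε := by
          field_simp
          ring

end Crest.Agent.S0329
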